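import Vale.Agent.Lib.P154.Freeze

/-!
# P154: reconstruction below the Kesten-Stigum bound for the four-state Potts channel on the
9-ary tree

For `q = 4` and the rooted tree with `d = 9` children per vertex, and every `lam` with
`-1/3 ≤ lam ≤ -1/3 + 1/2000`, the quantity `a_n` of the problem satisfies `a_n ≥ 1/4` for every
depth `n`, so reconstruction occurs; for `lam > -1/3` in this window `d * lam ^ 2 < 1`.
-/

namespace Vale.Agent.Results.P154.A_FourStateNineAry

open Vale.Agent.Lib.P154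

theorem result :
    (∀ lam : ℝ, -1 / 3 ≤ lam → lam ≤ -1 / 3 + 1 / 2000 → ∀ n : ℕ, 1 / 4 ≤ a 4 9 lam n) ∧
    (∀ lam : ℝ, -1 / 3 < lam → lam ≤ -1 / 3 + 1 / 2000 → 9 * lam ^ 2 < 1) := by
  refine ⟨fun lam h1 h2 n => a_ge h1 h2 n, fun lam h1 h2 => ?_⟩
  nlinarith

end Vale.Agent.Results.P154.A_FourStateNineAry
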